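import Vale.Agent.Lib.P363.Coulomb

/-!
P363, the one-electron case `N = 1`: for any nuclear configuration, the density of every
ground state of the one-electron Coulomb Hamiltonian is noninteracting ensemble
`V`-representable (with `V = L^{3/2} + L^∞`).
-/

namespace Vale.Agent.Results.P363.OneElectronCase

open MeasureTheory Vale.Agent.Lib.P363

/-- One-electron case of Q1: for `M ≥ 1` nuclei of positive integer charges at distinct
points, the density `|Ψ|^2` of every normalized ground state `Ψ` of
`-Δ/2 - Σ_j Z_j/|r - R_j|` on `L^2(ℝ^3;ℂ^2)` is noninteracting ensemble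
`L^{3/2}+L^∞`-representable. -/
theorem result (M : ℕ) (_hM : 1 ≤ M) (Z : Fin M → ℕ) (_hZ : ∀ j, 1 ≤ Z j) (R : Fin M → Pos)
    (_hR : Function.Injective R) (Ψ : Pos → Spin) (hΨ : IsGroundState (coulomb Z R) Ψ) :
    Representable (fun x => ‖Ψ x‖ ^ 2) := by
  refine ⟨coulomb Z R, coulomb_inV Z R, fun k => if k = 0 then 1 else 0, fun _ => Ψ, ?_, ?_, ?_, ?_⟩
  · intro k
    show (0 : ℝ) ≤ if k = 0 then 1 else 0
    split_ifs <;> norm_num
  · exact hasSum_ite_eq 0 1
  · intro k _
    exact hΨ
  · refine Filter.Eventually.of_forall ?_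
    intro x
    rw [tsum_eq_single 0]
    · simp
    · intro k hk
      simp [hk]

end Vale.Agent.Results.P363.OneElectronCase
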